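import Vale.Agent.P224.R2.H151.TbO1
import Vale.Agent.P224.R2.H151.TbO2
import Vale.Agent.P224.R2.H151.TbO3
import Vale.Agent.P224.R2.H151.TbO4
import Vale.Agent.P224.R2.H686.PhiG
import Vale.Agent.P224.R2.H176.G.Glue0

/-!
The relative tail in the small box of the odd dimensions 37 to 850.
-/

namespace Vale.Agent.P224.R2.H151

open MeasureTheory Set Function Real Module Matrix Vale.Agent.P224 Vale.Agent.P224.FV
  Vale.Agent.P224.R2.H582 Vale.Agent.P224.R2.H484 Vale.Agent.P224.R2.H728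
  Vale.Agent.P224.R2.H686 Vale.Agent.P224.R2.H662 Vale.Agent.P224.R2.H876
  Vale.Agent.P224.R2.H869
open Vale.Agent.P224.SM2 hiding ker
open Vale.Agent.P224.R2.H470 hiding tg
open Vale.Agent.P224.R2.H176 (NearData NearOut)
open scoped Topology RealInnerProductSpace ContDiff Manifold

set_option linter.unusedSectionVars false

/-- the threshold function of the odd law is at least `lamO` -/
structure ThrO (m : ℕ) (lT : ℝ → ℝ) : Prop where
  a : ∀ T ∈ Ioo (0 : ℝ) 1, T ≤ 1 / 2 →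
      17 * (1 - T ^ 10) * ((1 - 9 / (5 * (m : ℝ))) / (1 + 7 / (5 * (m : ℝ)))) ≤ lT T
  b : ∀ T ∈ Ioo (0 : ℝ) 1, 1 / 2 < T → 94 / 5 - 256 / (5 * (m : ℝ)) ≤ lT T
  c : ∀ T ∈ Ioo (0 : ℝ) 1, 1 / 2 < T → (63 / 5 - 146 / (5 * (m : ℝ))) / (1 - T ^ 2) ≤ lT T

/-- the numbers of the box -/
def boxN (m1 : ℕ) (O : OC) (r : ℚ) : Bool :=
  decide (0 ≤ r) && decide (6 * ((m1 : ℚ) + 2) ≤ (r - 1) * (5 * m1 - 6))
    && decide (r < ((O.R : ℚ) / 1000) ^ 2) && decide (r ≤ ((O.L : ℚ) / 10 ^ 4) ^ 2 * m1)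
    && decide (r ≤ 67 / 1000 * m1) && Nat.ble 6 O.C1

section

variable {V W M : Type*} [NormedAddCommGroup V] [InnerProductSpace ℝ V] [FiniteDimensional ℝ V]
  [NormedAddCommGroup W] [InnerProductSpace ℝ W] [FiniteDimensional ℝ W]
  [TopologicalSpace M] [ChartedSpace V M]
  [MeasurableSpace V] [BorelSpace V] [MeasurableSpace M] [BorelSpace M]
  [MeasurableSpace W] [BorelSpace W] [IsManifold 𝓘(ℝ, V) ∞ M]
  [CompactSpace M] [T2Space M]

/-- **the relative tail of a block in the small box** -/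
theorem tail_box [Nonempty M] (hW : finrank ℝ W = finrank ℝ V + 2)
    {F : M → W} (hF : SphImm V F) (hmin : ∀ x n, IsUnitNormal V F x n → meanCurv V F x n = 0)
    {Lc : List CN} {m1 m2 : ℕ} {Lm : List ℕ} {η β K : ℚ} {i1 i2 : ℕ}
    {O : OC} {l : List (ℕ × ℕ × ℕ)} {r : ℚ} (h37 : 37 ≤ m1)
    (hok : okB m1 (c1F m1) (c2F m1) η β K 5 i1 i2 = true)
    (hL : cellsOK Lc m1 m2 (c1F m1) (c2F m1) = true)
    (hco : coefS Lc m1 (MQ Lm) η β K 5 i1 i2 (tN O.X2) (tN O.X1) (tN O.X0) (zq O.z2) (zq O.z1)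
      (zq O.z0) = true)
    (hMM : ∀ m q : ℕ, m1 ≤ m → (m2 = 0 ∨ m ≤ m2) → MM m q ≤ Mt m Lm q)
    (hO : okO O l = true) (hbox : boxN m1 O r = true)
    (hm1 : m1 ≤ finrank ℝ V) (hm2 : m2 = 0 ∨ finrank ℝ V ≤ m2) {lT : ℝ → ℝ}
    (hlT : ThrO (finrank ℝ V) lT) {N : M → W} {b : OrthonormalBasis (Fin (finrank ℝ W)) ℝ W}
    {j : Fin (finrank ℝ W) → ℝ} {ν : ℝ} (hd : NearData V F N b j ν)
    (hh1 : hh (nrm (volM V F)) (diagonal j) (co b F) (co b N) ≤ 1 / 50)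
    (hf : √(fro (De (nrm (volM V F)) (co b F) (co b N))) ≤ 6 / (5 * (finrank ℝ V : ℝ))) :
    AbsTail (volM V F) (finrank ℝ V) F N lT
      ((O.C : ℝ) / 10 ^ 4 * hh (nrm (volM V F)) (diagonal j) (co b F) (co b N)) := by
  have D : NrmData V F N := nrmData_of_min (by omega) hW hF hmin hd.smooth hd.unit
  have := D.fin
  have := D.nz
  have := D.prob
  have : Nontrivial W := Module.nontrivial_of_finrank_pos (R := ℝ) (by omega)
  have h37' : (37 : ℝ) ≤ m1 := by exact_mod_cast h37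
  have hm1' : (m1 : ℝ) ≤ (finrank ℝ V : ℝ) := by exact_mod_cast hm1
  simp only [boxN, Bool.and_eq_true, decide_eq_true_eq, Nat.ble_eq] at hbox
  obtain ⟨⟨⟨⟨⟨b1, b2⟩, b3⟩, b4⟩, b5⟩, b6⟩ := hbox
  have b1' : (0 : ℝ) ≤ (r : ℝ) := by exact_mod_cast b1
  have b2' : 6 * ((m1 : ℝ) + 2) ≤ ((r : ℝ) - 1) * (5 * m1 - 6) := by exact_mod_cast b2
  have b3' : (r : ℝ) < ((O.R : ℝ) / 1000) ^ 2 := by
    have h : ((r : ℚ) : ℝ) < (((((O.R : ℕ) : ℚ) / 1000) ^ 2 : ℚ) : ℝ) := Rat.cast_lt.mpr b3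
    rw [Rat.cast_pow, Rat.cast_div, Rat.cast_natCast, Rat.cast_ofNat] at h
    exact h
  have b4' : (r : ℝ) ≤ ((O.L : ℝ) / 10 ^ 4) ^ 2 * m1 := by
    have h : ((r : ℚ) : ℝ) ≤ (((((O.L : ℕ) : ℚ) / 10 ^ 4) ^ 2 * (m1 : ℚ) : ℚ) : ℝ) :=
      Rat.cast_le.mpr b4
    rw [Rat.cast_mul, Rat.cast_pow, Rat.cast_div, Rat.cast_natCast, Rat.cast_pow,
      Rat.cast_ofNat, Rat.cast_natCast] at h
    exact h
  have b5' : (r : ℝ) ≤ 67 / 1000 * m1 := by
    have h : ((r : ℚ) : ℝ) ≤ ((67 / 1000 * (m1 : ℚ) : ℚ) : ℝ) := by exact_mod_cast b5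
    push_cast at h
    exact h
  have b6' : (6 : ℝ) ≤ O.C1 := by exact_mod_cast b6
  set m : ℝ := (finrank ℝ V : ℝ) with hm
  have hmR : (37 : ℝ) ≤ m := h37'.trans hm1'
  have hm0 : (0 : ℝ) < m := by linarith
  -- the bound of the weights
  have hj : ∀ a, j a ^ 2 ≤ (r : ℝ) := by
    intro a
    have hf0 : 0 ≤ fro (De (nrm (volM V F)) (co b F) (co b N)) := fro_nonneg _
    have hδ1 : 6 / (5 * m) < 1 := by
      rw [div_lt_one (by positivity)]
      linarith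
    have hfb : fro (De (nrm (volM V F)) (co b F) (co b N)) ≤ (6 / (5 * m)) ^ 2 := by
      rw [← Real.sq_sqrt hf0]
      exact pow_le_pow_left₀ (Real.sqrt_nonneg _) hf 2
    have k1 := hd.t0.w_le hm0.le hd.lsq (by positivity) hδ1 hfb a
    have e : (m + 2) * (6 / (5 * m) / (1 - 6 / (5 * m))) = 6 * (m + 2) / (5 * m - 6) := by
      have h5 : (5 * m - 6) ≠ 0 := by linarith
      have h6 : 1 - 6 / (5 * m) = (5 * m - 6) / (5 * m) := by field_simp
      rw [h6]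
      field_simp
    rw [e] at k1
    have k2 : 6 * (m + 2) / (5 * m - 6) ≤ (r : ℝ) - 1 := by
      rw [div_le_iff₀ (by linarith)]
      have h7 : (0 : ℝ) ≤ 5 * ((r : ℝ) - 1) - 6 := by nlinarith
      nlinarith
    linarith
  have hrl : (r : ℝ) ≤ ((O.L : ℝ) / 10 ^ 4) ^ 2 * m :=
    b4'.trans (mul_le_mul_of_nonneg_left hm1' (by positivity))
  -- the row of `φ²`
  have hP : ∫ x, ph (finrank ℝ V) (dop b j) F x ^ 2 ∂(nrm (volM V F))
      ≤ (O.C1 : ℝ) * ∫ x, aa (dop b j) F N x ∂(nrm (volM V F)) := by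
    have e : (√((r : ℝ) / m)) ^ 2 = (r : ℝ) / m := Real.sq_sqrt (by positivity)
    have d : Dat (nrm (volM V F)) (finrank ℝ V) F N (dop b j) (√((r : ℝ) / m)) :=
      Dat.of_LSq D.one (by omega) b hd.lsq (Real.sqrt_nonneg _) fun a => by
        rw [e, ← hm, div_mul_cancel₀ _ hm0.ne']
        exact hj a
    have e2 : hh (nrm (volM V F)) (diagonal j) (co b F) (co b N)
        = ∫ x, aa (dop b j) F N x ∂(nrm (volM V F)) := hh_norm b j
    have h1 := d.P067 (by omega) (by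
      rw [e, div_le_iff₀ hm0]
      refine b5'.trans ?_
      linarith) (by rw [← e2]; exact hh1)
    refine h1.trans (mul_le_mul_of_nonneg_right (by linarith) aa_int_nonneg)
  exact tail_OC D b hd.lsq hok hL hco hMM hm1 hm2 (thr_ok h37 hm1 hlT.a hlT.b hlT.c) hO b1' b3'
    hrl hj hP

lemma boxN1 : boxN 37 CO1 (413 / 179) = true := by decide +kernel
lemma boxN2 : boxN 61 CO2 (677 / 299) = true := by decide +kernel
lemma boxN3 : boxN 101 CO3 (1117 / 499) = true := by decide +kernel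
lemma boxN4 : boxN 401 CO4 (4417 / 1999) = true := by decide +kernel

variable [Nonempty M] (hW : finrank ℝ W = finrank ℝ V + 2)
    {F : M → W} (hF : SphImm V F) (hmin : ∀ x n, IsUnitNormal V F x n → meanCurv V F x n = 0)
    {lT : ℝ → ℝ} (hlT : ThrO (finrank ℝ V) lT) {N : M → W}
    {b : OrthonormalBasis (Fin (finrank ℝ W)) ℝ W}
    {j : Fin (finrank ℝ W) → ℝ} {ν : ℝ} (hd : NearData V F N b j ν)
    (hh1 : hh (nrm (volM V F)) (diagonal j) (co b F) (co b N) ≤ 1 / 50)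
    (hf : √(fro (De (nrm (volM V F)) (co b F) (co b N))) ≤ 6 / (5 * (finrank ℝ V : ℝ)))
include hW hF hmin hlT hd hh1 hf

theorem tail_37_60 (h1 : 37 ≤ finrank ℝ V) (h2 : finrank ℝ V ≤ 60) :
    AbsTail (volM V F) (finrank ℝ V) F N lT
      (355 / 10 ^ 4 * hh (nrm (volM V F)) (diagonal j) (co b F) (co b N)) :=
  tail_box hW hF hmin (m2 := 60) le_rfl okbO1 cellsO1 coefO1
    (fun _ q h h' => MM_le_60 (by omega) (by omega) q) chkO1 boxN1 h1 (Or.inr h2) hlT hd hh1 hf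

theorem tail_61_100 (h1 : 61 ≤ finrank ℝ V) (h2 : finrank ℝ V ≤ 100) :
    AbsTail (volM V F) (finrank ℝ V) F N lT
      (365 / 10 ^ 4 * hh (nrm (volM V F)) (diagonal j) (co b F) (co b N)) :=
  tail_box hW hF hmin (m2 := 100) (by norm_num) okbO2 cellsO2 coefO2
    (fun _ q h h' => MM_le_100 (by omega) (by omega) q) chkO2 boxN2 h1 (Or.inr h2) hlT hd hh1 hf

theorem tail_101_400 (h1 : 101 ≤ finrank ℝ V) (h2 : finrank ℝ V ≤ 400) :
    AbsTail (volM V F) (finrank ℝ V) F N lT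
      (240 / 10 ^ 4 * hh (nrm (volM V F)) (diagonal j) (co b F) (co b N)) :=
  tail_box hW hF hmin (m2 := 400) (by norm_num) okbO3 cellsO3 coefO3
    (fun _ q h h' => MM_le_400 (by omega) (by omega) q) chkO3 boxN3 h1 (Or.inr h2) hlT hd hh1 hf

theorem tail_401_850 (h1 : 401 ≤ finrank ℝ V) (h2 : finrank ℝ V ≤ 850) :
    AbsTail (volM V F) (finrank ℝ V) F N lT
      (175 / 10 ^ 4 * hh (nrm (volM V F)) (diagonal j) (co b F) (co b N)) :=
  tail_box hW hF hmin (m2 := 850) (by norm_num) okbO4 cellsO4 coefO4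
    (fun _ q h h' => MM_le_all (by omega) q) chkO4 boxN4 h1 (Or.inr h2) hlT hd hh1 hf

end

end Vale.Agent.P224.R2.H151
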