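import Mathlib.Analysis.Convex.Mul
import Vale.Agent.P224.R2.H151.Ua

/-!
A kernel check of the pointwise inequality for a bounded size of `J`: the variables are the
parameter `b`, the size `a` of the residual with `b ≤ a ≤ b + xs`, and `φ`. On a cell of `b` the
inequality is affine in `a` and convex in `b`, hence four polynomials in `φ` have to be checked.
-/

namespace Vale.Agent.P224.R2.H151

open Vale.Agent.P224.R2.H151.U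

/-! ### lists -/

/-- entry of a table -/
def g (T : List (List ℕ)) (i k : ℕ) : ℕ := (T.getD i []).getD k 0

/-- coefficients over the power of `φ` of the polynomial of a table at `b = Y / 1000`, unit
`10 ^ (-42)` -/
def eL (T : List (List ℕ)) (z Y : ℕ) : List ℕ :=
  [g T 6 6 * Y ^ 6 + z * 1000 ^ 6,
   g T 5 5 * (Y ^ 5 * 1000),
   g T 4 4 * (Y ^ 4 * 1000 ^ 2) + g T 6 5 * (Y ^ 5 * 1000),
   g T 3 3 * (Y ^ 3 * 1000 ^ 3) + g T 5 4 * (Y ^ 4 * 1000 ^ 2),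
   g T 2 2 * (Y ^ 2 * 1000 ^ 4) + g T 4 3 * (Y ^ 3 * 1000 ^ 3) + g T 6 4 * (Y ^ 4 * 1000 ^ 2),
   g T 1 1 * (Y * 1000 ^ 5) + g T 3 2 * (Y ^ 2 * 1000 ^ 4) + g T 5 3 * (Y ^ 3 * 1000 ^ 3),
   g T 0 0 * 1000 ^ 6 + g T 2 1 * (Y * 1000 ^ 5) + g T 4 2 * (Y ^ 2 * 1000 ^ 4)
     + g T 6 3 * (Y ^ 3 * 1000 ^ 3),
   g T 1 0 * 1000 ^ 6 + g T 3 1 * (Y * 1000 ^ 5) + g T 5 2 * (Y ^ 2 * 1000 ^ 4),
   g T 2 0 * 1000 ^ 6 + g T 4 1 * (Y * 1000 ^ 5) + g T 6 2 * (Y ^ 2 * 1000 ^ 4),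
   g T 3 0 * 1000 ^ 6 + g T 5 1 * (Y * 1000 ^ 5),
   g T 4 0 * 1000 ^ 6 + g T 6 1 * (Y * 1000 ^ 5),
   g T 5 0 * 1000 ^ 6,
   g T 6 0 * 1000 ^ 6]

/-- the value of the polynomial of a table -/
noncomputable def EE (T : List (List ℕ)) (z : ℕ) (b φ : ℝ) : ℝ :=
  (∑ i ∈ Finset.range 7, ∑ k ∈ Finset.range (i + 1),
    (g T i k : ℝ) / 10 ^ 24 * (b ^ k * φ ^ (6 - i + 2 * (i - k)))) + (z : ℝ) / 10 ^ 24

lemma ev_eL (T : List (List ℕ)) (z Y : ℕ) (φ : ℝ) :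
    ev (eL T z Y) φ = 10 ^ 42 * EE T z ((Y : ℝ) / 1000) φ := by
  unfold eL EE
  simp only [ev_cons, ev_nil, Finset.sum_range_succ, Finset.sum_range_zero]
  norm_num
  ring

/-- negative part of the rows of `φ` -/
def FN (TT L : ℕ) : ℕ → List ℕ → List ℕ
  | _, [] => []
  | k, w :: W => (w * (4 * k + 2) * TT * (625 * 10 ^ 13)) :: (w * (2 * L) * 10 ^ 19)
      :: FN TT L (k + 1) W

/-- positive part of the rows of `φ` -/
def FP : List ℕ → List ℕ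
  | [] => []
  | w :: W => (w * 10 ^ 23) :: 0 :: FP W

/-- negative part of the rows of `φ` -/
noncomputable def Fs (L : ℝ) : ℕ → List ℕ → ℝ → ℝ → ℝ
  | _, [], _, _ => 0
  | k, w :: W, τ, φ => (w : ℝ) / 10 ^ 24 * ((4 * k + 2) * φ ^ (2 * k) * τ + 2 * L * φ ^ (2 * k + 1))
      + Fs L (k + 1) W τ φ

/-- positive part of the rows of `φ` -/
noncomputable def Ps : ℕ → List ℕ → ℝ → ℝ
  | _, [], _ => 0
  | k, w :: W, φ => (w : ℝ) / 10 ^ 24 * φ ^ (2 * k + 2) + Ps (k + 1) W φ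

lemma ev_FN (TT L : ℕ) (W : List ℕ) (φ : ℝ) : ∀ k, φ ^ (2 * k) * ev (FN TT L k W) φ
    = 10 ^ 47 * Fs ((L : ℝ) / 10 ^ 4) k W ((TT : ℝ) / (16 * 10 ^ 6)) φ := by
  induction W with
  | nil => intro k; simp [FN, Fs, ev_nil]
  | cons w W ih =>
    intro k
    have h := ih (k + 1)
    simp only [FN, Fs, ev_cons]
    have e : φ ^ (2 * (k + 1)) = φ ^ (2 * k) * φ ^ 2 := by ring
    rw [e] at h
    have h2 : φ ^ (2 * k) * (φ * (φ * ev (FN TT L (k + 1) W) φ))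
        = 10 ^ 47 * Fs ((L : ℝ) / 10 ^ 4) (k + 1) W ((TT : ℝ) / (16 * 10 ^ 6)) φ := by
      rw [← h]
      ring
    push_cast
    rw [mul_add, mul_add φ, mul_add, mul_add (10 ^ 47), ← h2]
    have e2 : φ ^ (2 * k + 1) = φ ^ (2 * k) * φ := by ring
    rw [e2]
    ring

lemma ev_FP (W : List ℕ) (φ : ℝ) : ∀ k, φ ^ (2 * k + 2) * ev (FP W) φ
    = 10 ^ 47 * Ps k W φ := by
  induction W with
  | nil => intro k; simp [FP, Ps, ev_nil]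
  | cons w W ih =>
    intro k
    have h := ih (k + 1)
    simp only [FP, Ps, ev_cons]
    have e : φ ^ (2 * (k + 1) + 2) = φ ^ (2 * k + 2) * φ ^ 2 := by ring
    rw [e] at h
    rw [mul_add (10 ^ 47), ← h]
    push_cast
    ring

/-- scaling of the variable -/
def dsc (D : ℕ) : ℕ → List ℕ → List ℕ
  | _, [] => []
  | n, a :: l => (a * D ^ n) :: dsc D (n - 1) l

lemma ev_dsc (D : ℕ) (l : List ℕ) (x : ℝ) : ∀ n, l.length ≤ n + 1 →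
    ev (dsc D n l) (D * x) = (D : ℝ) ^ n * ev l x := by
  induction l with
  | nil => intro n _; simp [dsc, ev_nil]
  | cons a l ih =>
    intro n hn
    rw [List.length_cons] at hn
    simp only [dsc, ev_cons]
    rcases n with _ | n
    · have hl : l = [] := List.length_eq_zero_iff.1 (by omega)
      subst hl
      simp [dsc, ev_nil]
    · have h := ih n (by omega)
      rw [show n + 1 - 1 = n by omega, h, pow_succ]
      push_cast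
      ring

/-! ### the check -/

/-- the certificate of a block: tables (unit `10 ^ (-24)`), the constant `C / 10 ^ 4`, the constant
`C1` of the row of `φ²`, its multiplier, the bound `L / 10 ^ 4` of the size of `J`, the bound
`R / 1000` of the norm of `J p`, the bound `XS / 1000` of `a - b`, the multipliers of the rows of
`φ`, the scale of `φ` and the cells of `φ` -/
structure OC where
  X2 : List (List ℕ)
  X1 : List (List ℕ)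
  X0 : List (List ℕ)
  z2 : ℕ
  z1 : ℕ
  z0 : ℕ
  C : ℕ
  C1 : ℕ
  WP : ℕ
  L : ℕ
  R : ℕ
  XS : ℕ
  W : List ℕ
  D : ℕ
  nodes : List (ℕ × ℕ)

namespace OC

variable (O : OC)

/-- the negative part at a vertex -/
def NL (E2 E1 E0 : List ℕ) (A TT U V : ℕ) : List ℕ :=
  addL (smulL (A * 100) E2) (addL (smulL (U * A) E1)
    (addL (0 :: 0 :: addL (smulL (V * 1000) E1) (smulL (10 ^ 5) E0))
      (addL [O.WP * O.C1 * A * 10 ^ 20] (0 :: 0 :: FN TT O.L 1 O.W))))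

/-- the positive part at a vertex -/
def PL (A : ℕ) : List ℕ := (O.C * A * 10 ^ 40) :: 0 :: (O.WP * 10 ^ 23) :: 0 :: FP O.W

/-- a vertex -/
def vert (E2 E1 E0 : List ℕ) (A TT U V : ℕ) : Bool :=
  fL (O.PL A) fun P => fL (O.NL E2 E1 E0 A TT U V) fun N =>
    Nat.ble P.length 18 && Nat.ble N.length 18 &&
      fL (dsc O.D 17 P) fun P' => fL (dsc O.D 17 N) fun N' => uniA O.nodes P' N'

/-- the value of the tangent of `τ`, unit `1 / (16 * 10 ^ 6)`; `S` is the sum of the ends of the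
cell -/
def TT (S Y : ℕ) : ℕ := 16 * O.R * Y + S ^ 2 - 4 * S * Y

/-- the two vertices over an end of a cell -/
def verts (S Y U V : ℕ) : Bool :=
  fL (eL O.X2 O.z2 Y) fun E2 => fL (eL O.X1 O.z1 Y) fun E1 =>
    fL (eL O.X0 O.z0 Y) fun E0 => fN (O.TT S Y) fun T =>
      O.vert E2 E1 E0 Y T U V && O.vert E2 E1 E0 (Y + O.XS) T U V

/-- a cell -/
def cell (Y0 Y1 U V : ℕ) : Bool :=
  Nat.ble (Y0 + 1) Y1 && Nat.ble Y1 (4 * O.R) && Nat.ble 10000 (4 * (U * V)) &&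
    O.verts (Y0 + Y1) Y0 U V && O.verts (Y0 + Y1) Y1 U V

/-- all the cells up to `E` -/
def cells (E : ℕ) : ℕ → List (ℕ × ℕ × ℕ) → Bool
  | Y0, [] => Nat.ble E Y0
  | Y0, (Y1, U, V) :: l => O.cell Y0 Y1 U V && cells E Y1 l

/-! ### real functions -/

/-- the negative part -/
noncomputable def nv (tu tv b a τ φ : ℝ) : ℝ :=
  a * EE O.X2 O.z2 b φ + (tu * a + tv * φ ^ 2) * EE O.X1 O.z1 b φ + φ ^ 2 * EE O.X0 O.z0 b φ
    + (O.WP : ℝ) / 10 ^ 24 * O.C1 * a + Fs ((O.L : ℝ) / 10 ^ 4) 1 O.W τ φ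

/-- the positive part -/
noncomputable def pvv (a φ : ℝ) : ℝ :=
  (O.C : ℝ) / 10 ^ 4 * a + (O.WP : ℝ) / 10 ^ 24 * φ ^ 2 + Ps 1 O.W φ

lemma ev_NL (Y A TT U V : ℕ) (φ : ℝ) :
    ev (O.NL (eL O.X2 O.z2 Y) (eL O.X1 O.z1 Y) (eL O.X0 O.z0 Y) A TT U V) φ
      = 10 ^ 47 * O.nv ((U : ℝ) / 100) ((V : ℝ) / 100) ((Y : ℝ) / 1000) ((A : ℝ) / 1000)
        ((TT : ℝ) / (16 * 10 ^ 6)) φ := by
  unfold NL nv
  have h := ev_FN TT O.L O.W φ 1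
  simp only [ev_addL, ev_smulL, ev_cons, ev_nil, ev_eL]
  have h2 : φ * (φ * ev (FN TT O.L 1 O.W) φ)
      = 10 ^ 47 * Fs ((O.L : ℝ) / 10 ^ 4) 1 O.W ((TT : ℝ) / (16 * 10 ^ 6)) φ := by
    rw [← h]
    ring
  push_cast
  rw [zero_add, zero_add, zero_add, zero_add, h2]
  ring

lemma ev_PL (A : ℕ) (φ : ℝ) : ev (O.PL A) φ = 10 ^ 47 * O.pvv ((A : ℝ) / 1000) φ := by
  unfold PL pvv
  have h := ev_FP O.W φ 1
  simp only [ev_cons]
  have h2 : φ * (φ * (φ * (φ * ev (FP O.W) φ))) = 10 ^ 47 * Ps 1 O.W φ := by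
    rw [← h]
    ring
  push_cast
  linear_combination h2

lemma vert_sound {Y A TT U V : ℕ} (hD : 1 ≤ O.D)
    (h : O.vert (eL O.X2 O.z2 Y) (eL O.X1 O.z1 Y) (eL O.X0 O.z0 Y) A TT U V = true) {φ : ℝ}
    (hφ : 0 ≤ φ) : O.nv ((U : ℝ) / 100) ((V : ℝ) / 100) ((Y : ℝ) / 1000) ((A : ℝ) / 1000)
        ((TT : ℝ) / (16 * 10 ^ 6)) φ ≤ O.pvv ((A : ℝ) / 1000) φ := by
  unfold vert at h
  simp only [fL_eq, Bool.and_eq_true, Nat.ble_eq] at h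
  obtain ⟨⟨h1, h2⟩, h3⟩ := h
  have hD' : (0 : ℝ) < (O.D : ℝ) := by exact_mod_cast hD
  have h4 := uniA_sound h3 (x := (O.D : ℝ) * φ) (by positivity)
  rw [ev_dsc _ _ _ 17 (by omega), ev_dsc _ _ _ 17 (by omega), ev_NL, ev_PL] at h4
  have h5 := le_of_mul_le_mul_left h4 (by positivity)
  exact le_of_mul_le_mul_left h5 (by positivity)


end OC

/-! ### convexity -/

/-- convex along chords on the half line -/
def Cx (f : ℝ → ℝ) : Prop := ∀ y0 y1 l0 l1 : ℝ, 0 ≤ y0 → 0 ≤ y1 → 0 ≤ l0 → 0 ≤ l1 → l0 + l1 = 1 →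
  f (l0 * y0 + l1 * y1) ≤ l0 * f y0 + l1 * f y1

lemma cx_pow (k : ℕ) : Cx (fun b => b ^ k) := by
  intro y0 y1 l0 l1 h0 h1 hl0 hl1 hl
  exact (convexOn_pow k).2 h0 h1 hl0 hl1 hl

lemma cx_const (c : ℝ) : Cx (fun _ => c) := by
  intro y0 y1 l0 l1 _ _ _ _ hl
  have : l0 * c + l1 * c = c := by rw [← add_mul, hl, one_mul]
  simp only
  rw [this]

lemma Cx.add {f h : ℝ → ℝ} (hf : Cx f) (hh : Cx h) : Cx (fun b => f b + h b) := by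
  intro y0 y1 l0 l1 h0 h1 hl0 hl1 hl
  have := hf y0 y1 l0 l1 h0 h1 hl0 hl1 hl
  have := hh y0 y1 l0 l1 h0 h1 hl0 hl1 hl
  simp only
  linarith

lemma Cx.mul {f : ℝ → ℝ} (hf : Cx f) {c : ℝ} (hc : 0 ≤ c) : Cx (fun b => c * f b) := by
  intro y0 y1 l0 l1 h0 h1 hl0 hl1 hl
  have := mul_le_mul_of_nonneg_left (hf y0 y1 l0 l1 h0 h1 hl0 hl1 hl) hc
  simp only
  linarith

lemma Cx.congr {f h : ℝ → ℝ} (hf : Cx f) (e : ∀ b, f b = h b) : Cx h := by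
  have : f = h := funext e
  rwa [← this]

lemma Cx.sum {ι : Type*} (s : Finset ι) {f : ι → ℝ → ℝ} (hf : ∀ i ∈ s, Cx (f i)) :
    Cx (fun b => ∑ i ∈ s, f i b) := by
  classical
  induction s using Finset.induction_on with
  | empty => simpa using cx_const 0
  | insert i s hi ih =>
    have h1 := (hf i (Finset.mem_insert_self i s)).add
      (ih fun k hk => hf k (Finset.mem_insert_of_mem hk))
    exact h1.congr fun b => by rw [Finset.sum_insert hi]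

lemma cx_affine (c d : ℝ) : Cx (fun b => c * b + d) := by
  intro y0 y1 l0 l1 _ _ _ _ hl
  have e : l0 * (c * y0 + d) + l1 * (c * y1 + d) = c * (l0 * y0 + l1 * y1) + (l0 + l1) * d := by
    ring
  simp only
  rw [e, hl, one_mul]

lemma EE_nonneg (T : List (List ℕ)) (z : ℕ) {b φ : ℝ} (hb : 0 ≤ b) (hφ : 0 ≤ φ) :
    0 ≤ EE T z b φ := by
  unfold EE
  positivity

lemma cx_EE (T : List (List ℕ)) (z : ℕ) {φ : ℝ} (hφ : 0 ≤ φ) : Cx (fun b => EE T z b φ) := by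
  unfold EE
  refine Cx.add (Cx.sum _ fun i _ => Cx.sum _ fun k _ => ?_) (cx_const _)
  exact ((cx_pow k).mul (c := (g T i k : ℝ) / 10 ^ 24 * φ ^ (6 - i + 2 * (i - k)))
    (by positivity)).congr fun b => by ring

lemma cx_bEE (T : List (List ℕ)) (z : ℕ) {φ : ℝ} (hφ : 0 ≤ φ) :
    Cx (fun b => b * EE T z b φ) := by
  unfold EE
  have h1 : Cx (fun b : ℝ => ∑ i ∈ Finset.range 7, ∑ k ∈ Finset.range (i + 1),
      (g T i k : ℝ) / 10 ^ 24 * φ ^ (6 - i + 2 * (i - k)) * b ^ (k + 1)) :=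
    Cx.sum _ fun i _ => Cx.sum _ fun k _ => (cx_pow (k + 1)).mul (by positivity)
  have h2 : Cx (fun b : ℝ => (z : ℝ) / 10 ^ 24 * b ^ 1) := (cx_pow 1).mul (by positivity)
  refine (h1.add h2).congr fun b => ?_
  rw [mul_add, Finset.mul_sum, pow_one, mul_comm b]
  congr 1
  refine Finset.sum_congr rfl fun i _ => ?_
  rw [Finset.mul_sum]
  refine Finset.sum_congr rfl fun k _ => ?_
  ring

lemma Fs_affine (L : ℝ) (W : List ℕ) (φ : ℝ) : ∀ k, ∃ A B : ℝ, (0 ≤ φ → 0 ≤ A) ∧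
    ∀ τ, Fs L k W τ φ = A * τ + B := by
  induction W with
  | nil => intro k; exact ⟨0, 0, fun _ => le_rfl, fun τ => by simp [Fs]⟩
  | cons w W ih =>
    intro k
    obtain ⟨A, B, h0, h⟩ := ih (k + 1)
    refine ⟨(w : ℝ) / 10 ^ 24 * ((4 * k + 2) * φ ^ (2 * k)) + A,
      (w : ℝ) / 10 ^ 24 * (2 * L * φ ^ (2 * k + 1)) + B, fun hφ => ?_, fun τ => ?_⟩
    · have := h0 hφ
      positivity
    · simp only [Fs]
      rw [h]
      ring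

namespace OC

variable (O : OC)

/-- a column: the inequality at the two ends gives the inequality on the cell -/
theorem interp {tu tv xs y0 y1 c d φ : ℝ} (htu : 0 ≤ tu) (htv : 0 ≤ tv) (hφ : 0 ≤ φ) (hy0 : 0 ≤ y0)
    (hy : y0 < y1) (hxs : 0 < xs)
    (h00 : O.nv tu tv y0 y0 (c * y0 + d) φ ≤ O.pvv y0 φ)
    (h01 : O.nv tu tv y0 (y0 + xs) (c * y0 + d) φ ≤ O.pvv (y0 + xs) φ)
    (h10 : O.nv tu tv y1 y1 (c * y1 + d) φ ≤ O.pvv y1 φ)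
    (h11 : O.nv tu tv y1 (y1 + xs) (c * y1 + d) φ ≤ O.pvv (y1 + xs) φ)
    {b a : ℝ} (hb0 : y0 ≤ b) (hb1 : b ≤ y1) (ha0 : b ≤ a) (ha1 : a ≤ b + xs) :
    O.nv tu tv b a (c * b + d) φ ≤ O.pvv a φ := by
  obtain ⟨A, B, hA, hF⟩ := Fs_affine ((O.L : ℝ) / 10 ^ 4) O.W φ 1
  unfold nv pvv at *
  simp only [hF] at *
  obtain ⟨s, hs⟩ : ∃ s, s = a - b := ⟨_, rfl⟩
  have hs0 : 0 ≤ s := by linarith
  have hs1 : s ≤ xs := by linarith
  have ea : a = b + s := by linarith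
  subst ea
  -- the two columns at the given s
  have key : ∀ y, 0 ≤ y → ∀ E2 E1 E0 P W : ℝ,
      (y * E2 + (tu * y + tv * φ ^ 2) * E1 + φ ^ 2 * E0 + W * y + (A * (c * y + d) + B)
        ≤ (O.C : ℝ) / 10 ^ 4 * y + P) →
      ((y + xs) * E2 + (tu * (y + xs) + tv * φ ^ 2) * E1 + φ ^ 2 * E0 + W * (y + xs)
        + (A * (c * y + d) + B) ≤ (O.C : ℝ) / 10 ^ 4 * (y + xs) + P) →
      (y + s) * E2 + (tu * (y + s) + tv * φ ^ 2) * E1 + φ ^ 2 * E0 + W * (y + s)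
        + (A * (c * y + d) + B) ≤ (O.C : ℝ) / 10 ^ 4 * (y + s) + P := by
    intro y _ E2 E1 E0 P W k0 k1
    have j0 := mul_le_mul_of_nonneg_left k0 (sub_nonneg.2 hs1)
    have j1 := mul_le_mul_of_nonneg_left k1 hs0
    have j2 : xs * ((y + s) * E2 + (tu * (y + s) + tv * φ ^ 2) * E1 + φ ^ 2 * E0 + W * (y + s)
        + (A * (c * y + d) + B)) ≤ xs * ((O.C : ℝ) / 10 ^ 4 * (y + s) + P) := by
      linear_combination j0 + j1
    exact le_of_mul_le_mul_left j2 hxs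
  have k0 := key y0 hy0 (EE O.X2 O.z2 y0 φ) (EE O.X1 O.z1 y0 φ) (EE O.X0 O.z0 y0 φ)
    ((O.WP : ℝ) / 10 ^ 24 * φ ^ 2 + Ps 1 O.W φ) ((O.WP : ℝ) / 10 ^ 24 * O.C1)
    (by linarith) (by linarith)
  have k1 := key y1 (hy0.trans hy.le) (EE O.X2 O.z2 y1 φ) (EE O.X1 O.z1 y1 φ) (EE O.X0 O.z0 y1 φ)
    ((O.WP : ℝ) / 10 ^ 24 * φ ^ 2 + Ps 1 O.W φ) ((O.WP : ℝ) / 10 ^ 24 * O.C1)
    (by linarith) (by linarith)
  have hd : 0 < y1 - y0 := sub_pos.2 hy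
  obtain ⟨l0, e0⟩ : ∃ l0, l0 = (y1 - b) / (y1 - y0) := ⟨_, rfl⟩
  obtain ⟨l1, e1⟩ : ∃ l1, l1 = (b - y0) / (y1 - y0) := ⟨_, rfl⟩
  have hl0 : 0 ≤ l0 := by rw [e0]; exact div_nonneg (by linarith) hd.le
  have hl1 : 0 ≤ l1 := by rw [e1]; exact div_nonneg (by linarith) hd.le
  have hl : l0 + l1 = 1 := by
    rw [e0, e1, ← add_div, div_eq_one_iff_eq hd.ne']
    ring
  have eb : l0 * y0 + l1 * y1 = b := by
    rw [e0, e1]
    field_simp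
    ring
  have hy1 : 0 ≤ y1 := hy0.trans hy.le
  have c2 := cx_EE O.X2 O.z2 hφ y0 y1 l0 l1 hy0 hy1 hl0 hl1 hl
  have c2' := cx_bEE O.X2 O.z2 hφ y0 y1 l0 l1 hy0 hy1 hl0 hl1 hl
  have c1 := cx_EE O.X1 O.z1 hφ y0 y1 l0 l1 hy0 hy1 hl0 hl1 hl
  have c1' := cx_bEE O.X1 O.z1 hφ y0 y1 l0 l1 hy0 hy1 hl0 hl1 hl
  have c0 := cx_EE O.X0 O.z0 hφ y0 y1 l0 l1 hy0 hy1 hl0 hl1 hl
  simp only [eb] at c2 c2' c1 c1' c0
  have m0 := mul_le_mul_of_nonneg_left k0 hl0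
  have m1 := mul_le_mul_of_nonneg_left k1 hl1
  have d2 := mul_le_mul_of_nonneg_left c2 hs0
  have d1 := mul_le_mul_of_nonneg_left c1' htu
  have d1' := mul_le_mul_of_nonneg_left c1 (mul_nonneg htu hs0)
  have d1'' := mul_le_mul_of_nonneg_left c1 (mul_nonneg htv (sq_nonneg φ))
  have d0 := mul_le_mul_of_nonneg_left c0 (sq_nonneg φ)
  linear_combination m0 + m1 + c2' + d2 + d1 + d1' + d1'' + d0
    - ((O.WP : ℝ) / 10 ^ 24 * O.C1 + A * c - (O.C : ℝ) / 10 ^ 4) * eb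
    - ((O.WP : ℝ) / 10 ^ 24 * O.C1 * s + A * d + B - (O.C : ℝ) / 10 ^ 4 * s
      - ((O.WP : ℝ) / 10 ^ 24 * φ ^ 2 + Ps 1 O.W φ)) * hl

/-- the mixed term -/
lemma mixed {tu tv a φ : ℝ} (htu : 0 ≤ tu) (h : 1 ≤ 4 * (tu * tv)) (ha : 0 ≤ a) :
    √a * φ ≤ tu * a + tv * φ ^ 2 := by
  have h0 : 0 < tu := by
    rcases htu.eq_or_lt with h1 | h1
    · rw [← h1] at h
      norm_num at h
    · exact h1
  have e := Real.sq_sqrt ha
  have h1 : 0 ≤ 4 * tu * (tu * a + tv * φ ^ 2 - √a * φ) := by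
    have h2 := mul_nonneg (sub_nonneg.2 h) (sq_nonneg φ)
    have h3 := sq_nonneg (2 * tu * √a - φ)
    have e2 : 4 * tu * (tu * a + tv * φ ^ 2 - √a * φ)
        = (2 * tu * √a - φ) ^ 2 + (4 * (tu * tv) - 1) * φ ^ 2 + 4 * tu ^ 2 * (a - √a ^ 2) := by ring
    rw [e2, e]
    linarith
  have h2 : 0 ≤ tu * a + tv * φ ^ 2 - √a * φ := nonneg_of_mul_nonneg_right h1 (by linarith)
  linarith

/-- a cell of the certificate -/
theorem cell_sound {Y0 Y1 U V : ℕ} (hD : 1 ≤ O.D) (hX : 1 ≤ O.XS)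
    (h : O.cell Y0 Y1 U V = true) {b a τ φ : ℝ} (hφ : 0 ≤ φ)
    (hb0 : (Y0 : ℝ) / 1000 ≤ b) (hb1 : b ≤ (Y1 : ℝ) / 1000) (ha0 : b ≤ a)
    (ha1 : a ≤ b + (O.XS : ℝ) / 1000) (hτ : τ ≤ b * ((O.R : ℝ) / 1000 - b / 4)) :
    a * EE O.X2 O.z2 b φ + √a * φ * EE O.X1 O.z1 b φ + φ ^ 2 * EE O.X0 O.z0 b φ
      + (O.WP : ℝ) / 10 ^ 24 * O.C1 * a + Fs ((O.L : ℝ) / 10 ^ 4) 1 O.W τ φ
      ≤ (O.C : ℝ) / 10 ^ 4 * a + (O.WP : ℝ) / 10 ^ 24 * φ ^ 2 + Ps 1 O.W φ := by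
  unfold cell at h
  simp only [Bool.and_eq_true, Nat.ble_eq] at h
  obtain ⟨⟨⟨⟨h1, h2⟩, h3⟩, h4⟩, h5⟩ := h
  unfold verts at h4 h5
  simp only [fL_eq, fN_eq, Bool.and_eq_true] at h4 h5
  have v00 := O.vert_sound hD h4.1 hφ
  have v01 := O.vert_sound hD h4.2 hφ
  have v10 := O.vert_sound hD h5.1 hφ
  have v11 := O.vert_sound hD h5.2 hφ
  have hY0 : (0 : ℝ) ≤ (Y0 : ℝ) / 1000 := by positivity
  have hb : 0 ≤ b := hY0.trans hb0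
  have ha : 0 ≤ a := hb.trans ha0
  -- the tangent of `τ`
  obtain ⟨c, ec⟩ : ∃ c : ℝ, c = (O.R : ℝ) / 1000 - ((Y0 : ℝ) + Y1) / 4000 := ⟨_, rfl⟩
  obtain ⟨d, ed⟩ : ∃ d : ℝ, d = ((Y0 : ℝ) + Y1) ^ 2 / (16 * 10 ^ 6) := ⟨_, rfl⟩
  have eT : ∀ Y : ℕ, (Y = Y0 ∨ Y = Y1) →
      ((O.TT (Y0 + Y1) Y : ℕ) : ℝ) / (16 * 10 ^ 6) = c * ((Y : ℝ) / 1000) + d := by
    intro Y hY
    have hle : 4 * (Y0 + Y1) * Y ≤ 16 * O.R * Y + (Y0 + Y1) ^ 2 := by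
      have hYR : Y ≤ 4 * O.R := by omega
      have hq : Y * Y ≤ 4 * O.R * Y := Nat.mul_le_mul_right Y hYR
      have hz : (4 * (Y0 + Y1) * Y : ℤ) ≤ 16 * O.R * Y + (Y0 + Y1) ^ 2 := by
        have hq' : (Y : ℤ) * Y ≤ 4 * O.R * Y := by exact_mod_cast hq
        nlinarith [sq_nonneg ((Y0 : ℤ) + Y1 - 2 * Y)]
      exact_mod_cast hz
    unfold TT
    rw [Nat.cast_sub hle, ec, ed]
    push_cast
    ring
  rw [eT Y0 (Or.inl rfl)] at v00 v01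
  rw [eT Y1 (Or.inr rfl)] at v10 v11
  have e1 : ∀ Y : ℕ, ((Y + O.XS : ℕ) : ℝ) / 1000 = (Y : ℝ) / 1000 + (O.XS : ℝ) / 1000 := by
    intro Y
    push_cast
    ring
  rw [e1] at v01 v11
  have hy : (Y0 : ℝ) / 1000 < (Y1 : ℝ) / 1000 := by
    have : (Y0 : ℝ) + 1 ≤ Y1 := by exact_mod_cast h1
    apply div_lt_div_of_pos_right _ (by norm_num)
    linarith
  have hxs : (0 : ℝ) < (O.XS : ℝ) / 1000 := by
    have : (1 : ℝ) ≤ O.XS := by exact_mod_cast hX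
    positivity
  have hU : (0 : ℝ) ≤ (U : ℝ) / 100 := by positivity
  have hV : (0 : ℝ) ≤ (V : ℝ) / 100 := by positivity
  have k := O.interp hU hV hφ hY0 hy hxs v00 v01 v10 v11 hb0 hb1 ha0 ha1
  unfold nv pvv at k
  have hUV : 1 ≤ 4 * ((U : ℝ) / 100 * ((V : ℝ) / 100)) := by
    have : (10000 : ℝ) ≤ 4 * (U * V) := by exact_mod_cast h3
    linarith
  have m1 := mul_le_mul_of_nonneg_right (mixed (φ := φ) hU hUV ha) (EE_nonneg O.X1 O.z1 hb hφ)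
  obtain ⟨A, B, hA, hF⟩ := Fs_affine ((O.L : ℝ) / 10 ^ 4) O.W φ 1
  rw [hF] at k ⊢
  have hτ2 : τ ≤ c * b + d := by
    have h6 := sq_nonneg (b - ((Y0 : ℝ) + Y1) / 2000)
    have e2 : c * b + d - b * ((O.R : ℝ) / 1000 - b / 4)
        = (b - ((Y0 : ℝ) + Y1) / 2000) ^ 2 / 4 := by
      rw [ec, ed]
      ring
    linarith
  have m2 := mul_le_mul_of_nonneg_left hτ2 (hA hφ)
  linarith

/-- all cells -/
theorem cells_sound (hD : 1 ≤ O.D) (hX : 1 ≤ O.XS) {E : ℕ} : ∀ (l : List (ℕ × ℕ × ℕ)) {Y0 : ℕ},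
    O.cells E Y0 l = true → ∀ {b a τ φ : ℝ}, 0 ≤ φ → (Y0 : ℝ) / 1000 ≤ b → b < (E : ℝ) / 1000 →
    b ≤ a → a ≤ b + (O.XS : ℝ) / 1000 → τ ≤ b * ((O.R : ℝ) / 1000 - b / 4) →
    a * EE O.X2 O.z2 b φ + √a * φ * EE O.X1 O.z1 b φ + φ ^ 2 * EE O.X0 O.z0 b φ
      + (O.WP : ℝ) / 10 ^ 24 * O.C1 * a + Fs ((O.L : ℝ) / 10 ^ 4) 1 O.W τ φ
      ≤ (O.C : ℝ) / 10 ^ 4 * a + (O.WP : ℝ) / 10 ^ 24 * φ ^ 2 + Ps 1 O.W φ := by
  intro l
  induction l with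
  | nil =>
    intro Y0 h b a τ φ _ h1 h2
    simp only [cells, Nat.ble_eq] at h
    exfalso
    have : (E : ℝ) ≤ Y0 := by exact_mod_cast h
    have : (E : ℝ) / 1000 ≤ (Y0 : ℝ) / 1000 := by linarith
    linarith
  | cons t l ih =>
    obtain ⟨Y1, U, V⟩ := t
    intro Y0 h b a τ φ hφ h1 h2 h3 h4 h5
    simp only [cells, Bool.and_eq_true] at h
    rcases le_total b ((Y1 : ℝ) / 1000) with hb | hb
    · exact O.cell_sound hD hX h.1 hφ h1 hb h3 h4 h5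
    · exact ih h.2 hφ hb h2 h3 h4 h5

end OC

end Vale.Agent.P224.R2.H151
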