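import Vale.Agent.P224.R2.H151.Oc
import Vale.Agent.P224.R2.H869.TlEnd2

/-!
From the kernel check to the relative tail, for a bounded size of `J`.
-/

namespace Vale.Agent.P224.R2.H151

open MeasureTheory Set Function Real Module Matrix Vale.Agent.P224 Vale.Agent.P224.FV
  Vale.Agent.P224.R2.H582 Vale.Agent.P224.R2.H484 Vale.Agent.P224.R2.H728
  Vale.Agent.P224.R2.H686 Vale.Agent.P224.R2.H662 Vale.Agent.P224.R2.H876
  Vale.Agent.P224.R2.H869
open Vale.Agent.P224.SM2 hiding ker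
open Vale.Agent.P224.R2.H470 hiding tg
open scoped Topology RealInnerProductSpace ContDiff Manifold

set_option linter.unusedSectionVars false

/-! ### thresholds -/

/-- the threshold below `1 / 2` -/
def thA (m1 : ℕ) : ℚ := 17 * (1023 / 1024) * ((1 - 9 / (5 * m1)) / (1 + 7 / (5 * m1)))

/-- the first number of the threshold of the cell -/
def c1F (m1 : ℕ) (c : ℕ) : ℚ := if c < 54 then thA m1 else 94 / 5 - 256 / (5 * m1)

/-- the second number of the threshold of the cell -/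
def c2F (m1 : ℕ) (c : ℕ) : ℚ := if c < 54 then 37 / 50 * thA m1 else 63 / 5 - 146 / (5 * m1)

lemma half_lt_tR {c : ℕ} (h1 : 54 ≤ c) (h2 : c < 200) : (1 / 2 : ℝ) < ((tR c : ℚ) : ℝ) := by
  have h : (1 / 2 : ℚ) < tR c := by
    unfold tR
    have h1' : (54 : ℚ) ≤ c := by exact_mod_cast h1
    have h2' : (c : ℚ) < 200 := by exact_mod_cast h2
    rw [lt_div_iff₀ (by positivity)]
    nlinarith
  have h' : (((1 / 2 : ℚ)) : ℝ) < ((tR c : ℚ) : ℝ) := by exact_mod_cast h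
  push_cast at h'
  exact h'

lemma thA_cast (m1 : ℕ) : ((thA m1 : ℚ) : ℝ)
    = 17 * (1023 / 1024) * ((1 - 9 / (5 * (m1 : ℝ))) / (1 + 7 / (5 * (m1 : ℝ)))) := by
  unfold thA
  push_cast
  ring

lemma fm_eq {m : ℝ} (hm : 0 < m) : (1 - 9 / (5 * m)) / (1 + 7 / (5 * m)) = 1 - 16 / (5 * m + 7) := by
  have h1 : (5 * m + 7) ≠ 0 := by positivity
  field_simp
  ring

/-- the thresholds of the cells are below the threshold of the law -/
theorem thr_ok {m1 m : ℕ} (h37 : 37 ≤ m1) (hm : m1 ≤ m) {lT : ℝ → ℝ}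
    (ha : ∀ T ∈ Ioo (0 : ℝ) 1, T ≤ 1 / 2 →
      17 * (1 - T ^ 10) * ((1 - 9 / (5 * (m : ℝ))) / (1 + 7 / (5 * (m : ℝ)))) ≤ lT T)
    (hb : ∀ T ∈ Ioo (0 : ℝ) 1, 1 / 2 < T → 94 / 5 - 256 / (5 * (m : ℝ)) ≤ lT T)
    (hc : ∀ T ∈ Ioo (0 : ℝ) 1, 1 / 2 < T → (63 / 5 - 146 / (5 * (m : ℝ))) / (1 - T ^ 2) ≤ lT T) :
    ∀ c < 200, ∀ T ∈ Ioo (0 : ℝ) 1, ((tR c : ℚ) : ℝ) < T → T ≤ tR (c + 1) →
      ((c1F m1 c : ℚ) : ℝ) ≤ lT T ∧ ((c2F m1 c : ℚ) : ℝ) / (1 - T ^ 2) ≤ lT T := by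
  have h37' : (37 : ℝ) ≤ m1 := by exact_mod_cast h37
  have hm' : (m1 : ℝ) ≤ m := by exact_mod_cast hm
  have hm1 : (0 : ℝ) < m1 := by linarith
  have hm0 : (0 : ℝ) < m := by linarith
  have hA : ((thA m1 : ℚ) : ℝ) = 17 * (1023 / 1024) * (1 - 16 / (5 * (m1 : ℝ) + 7)) := by
    rw [thA_cast, fm_eq hm1]
  have hf : 1 - 16 / (5 * (m1 : ℝ) + 7) ≤ 1 - 16 / (5 * (m : ℝ) + 7) := by
    have : 16 / (5 * (m : ℝ) + 7) ≤ 16 / (5 * (m1 : ℝ) + 7) := by
      apply div_le_div_of_nonneg_left (by norm_num) (by positivity)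
      linarith
    linarith
  have hf0 : 0 ≤ 1 - 16 / (5 * (m1 : ℝ) + 7) := by
    have : 16 / (5 * (m1 : ℝ) + 7) ≤ 1 := by
      rw [div_le_one (by positivity)]
      linarith
    linarith
  have hf1 : 1 - 16 / (5 * (m1 : ℝ) + 7) ≤ 1 := by
    have : 0 ≤ 16 / (5 * (m1 : ℝ) + 7) := by positivity
    linarith
  have hA0 : 0 ≤ ((thA m1 : ℚ) : ℝ) := by rw [hA]; positivity
  have h256 : 256 / (5 * (m : ℝ)) ≤ 256 / (5 * (m1 : ℝ)) := by
    apply div_le_div_of_nonneg_left (by norm_num) (by positivity)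
    linarith
  have h146 : 146 / (5 * (m : ℝ)) ≤ 146 / (5 * (m1 : ℝ)) := by
    apply div_le_div_of_nonneg_left (by norm_num) (by positivity)
    linarith
  have h256' : 256 / (5 * (m1 : ℝ)) ≤ 256 / 185 := by
    apply div_le_div_of_nonneg_left (by norm_num) (by norm_num)
    linarith
  have h74 : 37 / 50 * ((thA m1 : ℚ) : ℝ) ≤ 63 / 5 - 146 / (5 * (m1 : ℝ)) := by
    rw [hA]
    have e : 63 / 5 - 146 / (5 * (m1 : ℝ)) - 37 / 50 * (17 * (1023 / 1024) * (1 - 16 / (5 * (m1 : ℝ) + 7)))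
        = ((63 / 5 - 37 / 50 * (17 * (1023 / 1024))) * (m1 : ℝ) * (5 * m1 + 7)
          + 37 / 50 * (17 * (1023 / 1024)) * 16 * m1 - 146 / 5 * (5 * m1 + 7))
          / ((m1 : ℝ) * (5 * m1 + 7)) := by
      have h7 : (5 * (m1 : ℝ) + 7) ≠ 0 := by positivity
      field_simp
      ring
    have h8 : 0 ≤ ((63 / 5 - 37 / 50 * (17 * (1023 / 1024))) * (m1 : ℝ) * (5 * m1 + 7)
          + 37 / 50 * (17 * (1023 / 1024)) * 16 * m1 - 146 / 5 * (5 * m1 + 7))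
          / ((m1 : ℝ) * (5 * m1 + 7)) := by
      apply div_nonneg _ (by positivity)
      nlinarith
    linarith
  intro c hc2 T hT hT1 _
  have hk0 : 0 < 1 - T ^ 2 := by nlinarith [hT.1, hT.2]
  unfold c1F c2F
  split_ifs with h54
  · rcases le_or_gt T (1 / 2) with hh | hh
    · have h1 := ha T hT hh
      rw [fm_eq hm0] at h1
      have hT10 : T ^ 10 ≤ 1 / 1024 := by
        have := pow_le_pow_left₀ hT.1.le hh 10
        norm_num at this ⊢
        exact this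
      have hT2 : T ^ 2 ≤ 1 / 4 := by
        have := pow_le_pow_left₀ hT.1.le hh 2
        norm_num at this ⊢
        exact this
      have h2 : ((thA m1 : ℚ) : ℝ) ≤ lT T := by
        rw [hA]
        refine le_trans ?_ h1
        have h3 : 17 * (1023 / 1024) ≤ 17 * (1 - T ^ 10) := by linarith
        exact mul_le_mul h3 hf hf0 (by linarith)
      refine ⟨h2, ?_⟩
      rw [div_le_iff₀ hk0]
      push_cast
      have h4 : 3 / 4 * lT T ≤ lT T * (1 - T ^ 2) := by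
        have : 0 ≤ lT T := hA0.trans h2
        nlinarith
      linarith
    · have h1 := hb T hT hh
      have h2 := hc T hT hh
      refine ⟨?_, ?_⟩
      · rw [hA]
        have h3 : 17 * (1023 / 1024) * (1 - 16 / (5 * (m1 : ℝ) + 7)) ≤ 17 := by nlinarith
        linarith
      · refine le_trans ?_ h2
        apply div_le_div_of_nonneg_right _ hk0.le
        push_cast
        linarith
  · have hh : 1 / 2 < T := (half_lt_tR (by omega) hc2).trans hT1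
    have h1 := hb T hT hh
    have h2 := hc T hT hh
    refine ⟨?_, ?_⟩
    · push_cast
      linarith
    · refine le_trans ?_ h2
      apply div_le_div_of_nonneg_right _ hk0.le
      push_cast
      linarith

/-- a number in units of `10 ^ (-24)` -/
def zq (z : ℕ) : ℚ := (z : ℚ) / 1000000000000000000000000

lemma PS_EE (X2 X1 X0 : List (List ℕ)) (z2 z1 z0 : ℕ) (a b φ : ℝ) :
    PS 5 (tN X2) (tN X1) (tN X0) (zq z2) (zq z1) (zq z0) a b φ
      = a * EE X2 z2 b φ + √a * φ * EE X1 z1 b φ + φ ^ 2 * EE X0 z0 b φ := by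
  have e : ∀ T : List (List ℕ), ∀ i k : ℕ, ((tN T i k : ℚ) : ℝ) = (g T i k : ℝ) / 10 ^ 24 := by
    intro T i k
    unfold tN g
    push_cast
    norm_num
  have e2 : ∀ z : ℕ, ((zq z : ℚ) : ℝ) = (z : ℝ) / 10 ^ 24 := by
    intro z
    unfold zq
    push_cast
    norm_num
  unfold PS EE
  simp only [e, e2]
  rw [mul_add, mul_add, mul_add, Finset.mul_sum, Finset.mul_sum, Finset.mul_sum]
  have h : ∑ i ∈ Finset.range (5 + 2), ∑ k ∈ Finset.range (i + 1),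
      ((g X2 i k : ℝ) / 10 ^ 24 * a + (g X1 i k : ℝ) / 10 ^ 24 * (√a * φ)
        + (g X0 i k : ℝ) / 10 ^ 24 * φ ^ 2) * (b ^ k * φ ^ (5 + 1 - i + 2 * (i - k)))
      = (∑ i ∈ Finset.range 7, a * ∑ k ∈ Finset.range (i + 1),
          (g X2 i k : ℝ) / 10 ^ 24 * (b ^ k * φ ^ (6 - i + 2 * (i - k))))
        + (∑ i ∈ Finset.range 7, √a * φ * ∑ k ∈ Finset.range (i + 1),
          (g X1 i k : ℝ) / 10 ^ 24 * (b ^ k * φ ^ (6 - i + 2 * (i - k))))
        + ∑ i ∈ Finset.range 7, φ ^ 2 * ∑ k ∈ Finset.range (i + 1),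
          (g X0 i k : ℝ) / 10 ^ 24 * (b ^ k * φ ^ (6 - i + 2 * (i - k))) := by
    rw [← Finset.sum_add_distrib, ← Finset.sum_add_distrib]
    refine Finset.sum_congr rfl fun i _ => ?_
    rw [Finset.mul_sum, Finset.mul_sum, Finset.mul_sum, ← Finset.sum_add_distrib,
      ← Finset.sum_add_distrib]
    refine Finset.sum_congr rfl fun k _ => ?_
    rw [show 5 + 1 - i + 2 * (i - k) = 6 - i + 2 * (i - k) by omega]
    ring
  rw [h]
  ring

/-- the combination of the rows of `φ` -/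
noncomputable def rowW (lam : ℝ) : ℕ → List ℕ → ℝ → ℝ → ℝ → ℝ
  | _, [], _, _, _ => 0
  | k, w :: W, a, q, φ => (w : ℝ) / 10 ^ 24 * FF1 lam k a q φ + rowW lam (k + 1) W a q φ

lemma rowW_eq (lam : ℝ) (W : List ℕ) (a q φ : ℝ) : ∀ k, rowW lam k W a q φ
    = Ps k W φ - Fs lam k W (a - (a - q) ^ 2 / 4) φ := by
  induction W with
  | nil => intro k; simp [rowW, Ps, Fs]
  | cons w W ih =>
    intro k
    simp only [rowW, Ps, Fs]
    rw [ih]
    unfold FF1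
    ring

/-- the combination of the rows -/
noncomputable def rowO (O : OC) (a q φ : ℝ) : ℝ :=
  (O.WP : ℝ) / 10 ^ 24 * (φ ^ 2 - (O.C1 : ℝ) * a) + rowW ((O.L : ℝ) / 10 ^ 4) 1 O.W a q φ

/-- the check of a certificate -/
def okO (O : OC) (l : List (ℕ × ℕ × ℕ)) : Bool :=
  Nat.ble 1 O.D && Nat.ble 1 O.XS && Nat.ble 1000 O.R
    && Nat.ble ((O.R - 1000) * (O.R - 1000)) (1000 * O.XS) && O.cells (4 * O.R) 0 l

/-- **the pointwise inequality from the check** -/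
theorem ptO {O : OC} {l : List (ℕ × ℕ × ℕ)} (h : okO O l = true) {m : ℕ} {Λ : ℝ}
    (hr : Λ ^ 2 * m < ((O.R : ℝ) / 1000) ^ 2) :
    PtIneqB m Λ (PS 5 (tN O.X2) (tN O.X1) (tN O.X0) (zq O.z2) (zq O.z1) (zq O.z0)) (rowO O)
      ((O.C : ℝ) / 10 ^ 4) := by
  unfold okO at h
  simp only [Bool.and_eq_true, Nat.ble_eq] at h
  obtain ⟨⟨⟨⟨h1, h2⟩, h3⟩, h4⟩, h5⟩ := h
  have hR : (1 : ℝ) ≤ (O.R : ℝ) / 1000 := by
    have : (1000 : ℝ) ≤ O.R := by exact_mod_cast h3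
    linarith
  have hXS : ((O.R : ℝ) / 1000 - 1) ^ 2 ≤ (O.XS : ℝ) / 1000 := by
    have h6 : (((O.R - 1000) * (O.R - 1000) : ℕ) : ℝ) ≤ ((1000 * O.XS : ℕ) : ℝ) := by
      exact_mod_cast h4
    push_cast [Nat.cast_sub h3] at h6
    nlinarith
  intro ρ y φ hρ hρ2 hy hy4 hφ _
  have hρR : ρ < (O.R : ℝ) / 1000 := lt_of_pow_lt_pow_left₀ 2 (by linarith) (hρ2.trans_lt hr)
  have eE : ((4 * O.R : ℕ) : ℝ) / 1000 = 4 * ((O.R : ℝ) / 1000) := by
    push_cast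
    ring
  have eτ : y + (1 - ρ) ^ 2 - (y + (1 - ρ) ^ 2 - (ρ ^ 2 - 1)) ^ 2 / 4 = y * ρ - y ^ 2 / 4 := by ring
  have key : ∀ b : ℝ, 0 ≤ b → b < 4 * ((O.R : ℝ) / 1000) → b ≤ y + (1 - ρ) ^ 2 →
      y + (1 - ρ) ^ 2 ≤ b + (O.XS : ℝ) / 1000 → y * ρ - y ^ 2 / 4 ≤ b * ((O.R : ℝ) / 1000 - b / 4) →
      PS 5 (tN O.X2) (tN O.X1) (tN O.X0) (zq O.z2) (zq O.z1) (zq O.z0) (y + (1 - ρ) ^ 2) b φ
        ≤ (O.C : ℝ) / 10 ^ 4 * (y + (1 - ρ) ^ 2) + rowO O (y + (1 - ρ) ^ 2) (ρ ^ 2 - 1) φ := by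
    intro b b0 b1 b2 b3 b4
    have h6 := O.cells_sound h1 h2 l h5 hφ (by simpa using b0) (by rw [eE]; exact b1) b2 b3 b4
    rw [PS_EE]
    unfold rowO
    rw [rowW_eq, eτ]
    linarith
  split_ifs with h6
  · refine key y hy (by linarith) (by nlinarith [sq_nonneg (1 - ρ)]) ?_ ?_
    · have h7 : (1 - ρ) ^ 2 ≤ ((O.R : ℝ) / 1000 - 1) ^ 2 := by
        have e : (1 - ρ) ^ 2 = (ρ - 1) ^ 2 := by ring
        rw [e]
        exact pow_le_pow_left₀ (by linarith) (by linarith) 2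
      linarith
    · have h7 := mul_le_mul_of_nonneg_left hρR.le hy
      nlinarith
  · push Not at h6
    refine key _ (by positivity) ?_ le_rfl ?_ ?_
    · nlinarith
    · have : (0 : ℝ) ≤ (O.XS : ℝ) / 1000 := by positivity
      linarith
    · have h8 : y * ρ - y ^ 2 / 4 ≤ (y + (1 - ρ) ^ 2) - (y + (1 - ρ) ^ 2) ^ 2 / 4 := by
        have h9 : 0 ≤ y + (1 - ρ) ^ 2 := by positivity
        have h10 : 0 ≤ 1 - ρ ^ 2 := by nlinarith
        rw [← eτ]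
        nlinarith [mul_nonneg h9 h10]
      have h9 : 0 ≤ y + (1 - ρ) ^ 2 := by positivity
      have h10 := mul_le_mul_of_nonneg_left hR h9
      nlinarith

section

variable {X : Type*} {E : Type*} [NormedAddCommGroup E] [InnerProductSpace ℝ E]
  [FiniteDimensional ℝ E] [TopologicalSpace X] [MeasurableSpace X] [CompactSpace X] [BorelSpace X]
  {μ : Measure X} [IsProbabilityMeasure μ] {m : ℕ} {p n : X → E} {J : E →L[ℝ] E} {Λ : ℝ}

lemma isRow_W (d : Dat μ m p n J Λ) (W : List ℕ) : ∀ k, IsRow μ m p n J (rowW Λ k W) := by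
  induction W with
  | nil => intro k; exact isRow_zero
  | cons w W ih =>
    intro k
    exact ((isRow_F d k).smul (c := (w : ℝ) / 10 ^ 24) (by positivity)).add (ih (k + 1))

lemma isRow_O {O : OC} (d : Dat μ m p n J ((O.L : ℝ) / 10 ^ 4))
    (hP : ∫ x, ph m J p x ^ 2 ∂μ ≤ (O.C1 : ℝ) * ∫ x, aa J p n x ∂μ) :
    IsRow μ m p n J (rowO O) :=
  ((isRow_P d hP).smul (c := (O.WP : ℝ) / 10 ^ 24) (by positivity)).add (isRow_W d O.W 1)

end

section

variable {V W M : Type*} [NormedAddCommGroup V] [InnerProductSpace ℝ V] [FiniteDimensional ℝ V]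
  [NormedAddCommGroup W] [InnerProductSpace ℝ W] [FiniteDimensional ℝ W]
  [TopologicalSpace M] [ChartedSpace V M]
  [MeasurableSpace V] [BorelSpace V] [MeasurableSpace M] [BorelSpace M]
  [MeasurableSpace W] [BorelSpace W] [IsManifold 𝓘(ℝ, V) ∞ M]
  [CompactSpace M] [T2Space M]

/-- **the relative tail in a small box from the kernel check** -/
theorem tail_OC {F N : M → W} (D : NrmData V F N) {ι : Type*} [Fintype ι] [DecidableEq ι]
    (b : OrthonormalBasis ι ℝ W) {j : ι → ℝ} [Nontrivial W]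
    (hLS : LSq (nrm (volM V F)) (diagonal j) (co b F) (co b N))
    {Lc : List CN} {m1 m2 : ℕ} {Lm : List ℕ} {c1 c2 : ℕ → ℚ} {η β K : ℚ} {i1 i2 : ℕ}
    {O : OC} {l : List (ℕ × ℕ × ℕ)}
    (hok : okB m1 c1 c2 η β K 5 i1 i2 = true) (hL : cellsOK Lc m1 m2 c1 c2 = true)
    (hco : coefS Lc m1 (MQ Lm) η β K 5 i1 i2 (tN O.X2) (tN O.X1) (tN O.X0) (zq O.z2) (zq O.z1)
      (zq O.z0) = true)
    (hMM : ∀ m q : ℕ, m1 ≤ m → (m2 = 0 ∨ m ≤ m2) → MM m q ≤ Mt m Lm q)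
    (hm1 : m1 ≤ finrank ℝ V) (hm2 : m2 = 0 ∨ finrank ℝ V ≤ m2) {lT : ℝ → ℝ}
    (hl : ∀ c < 200, ∀ T ∈ Ioo (0 : ℝ) 1, ((tR c : ℚ) : ℝ) < T → T ≤ tR (c + 1) →
      ((c1 c : ℚ) : ℝ) ≤ lT T ∧ ((c2 c : ℚ) : ℝ) / (1 - T ^ 2) ≤ lT T)
    (hO : okO O l = true) {r : ℝ} (hr0 : 0 ≤ r) (hr : r < ((O.R : ℝ) / 1000) ^ 2)
    (hrl : r ≤ ((O.L : ℝ) / 10 ^ 4) ^ 2 * finrank ℝ V) (hj : ∀ a, j a ^ 2 ≤ r)
    (hP : ∫ x, ph (finrank ℝ V) (dop b j) F x ^ 2 ∂(nrm (volM V F))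
      ≤ (O.C1 : ℝ) * ∫ x, aa (dop b j) F N x ∂(nrm (volM V F))) :
    AbsTail (volM V F) (finrank ℝ V) F N lT
      ((O.C : ℝ) / 10 ^ 4 * hh (nrm (volM V F)) (diagonal j) (co b F) (co b N)) := by
  have := D.fin
  have := D.nz
  have := D.prob
  have h17 : 17 ≤ m1 := by
    unfold okB at hok
    simp only [Bool.and_eq_true, decide_eq_true_eq] at hok
    exact hok.2
  have hm : 1 ≤ finrank ℝ V := by omega
  have hm0 : (0 : ℝ) < finrank ℝ V := by exact_mod_cast (by omega : 0 < finrank ℝ V)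
  have e : (√(r / finrank ℝ V)) ^ 2 * finrank ℝ V = r := by
    rw [Real.sq_sqrt (by positivity), div_mul_cancel₀ _ hm0.ne']
  have d1 : Dat (nrm (volM V F)) (finrank ℝ V) F N (dop b j) (√(r / finrank ℝ V)) :=
    Dat.of_LSq D.one hm b hLS (Real.sqrt_nonneg _) fun a => by rw [e]; exact hj a
  have d2 : Dat (nrm (volM V F)) (finrank ℝ V) F N (dop b j) ((O.L : ℝ) / 10 ^ 4) :=
    Dat.of_LSq D.one hm b hLS (by positivity) fun a => (hj a).trans hrl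
  obtain ⟨g1, g2⟩ := tail_PS D b j hok hL hco hMM hm1 hm2 hl
  exact rel_nearB D b j d1 g1 g2 (isRow_O d2 hP) (ptO hO (by rw [e]; exact hr))

end

end Vale.Agent.P224.R2.H151
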